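import Vale.Agent.P331.H316.CH
import Vale.Agent.P331.H830.Bes

/-!
# Bessel and entrance in the literal forms
-/

set_option autoImplicit false
set_option linter.unusedSectionVars false
set_option linter.unusedVariables false

namespace Vale.Agent.P331.H316

open Finset Vale.Agent.P331.H489
open scoped Classical

theorem tw_eq_bw {E : Type} [Fintype E] (t : ℝ) :
    (fun _ : E => tw t) = Vale.Agent.P331.H830.bw fun _ => t := by
  funext e b
  rfl

/-- **ROW BES** -/
theorem rowBES : RowBES := by
  intro E _ D hD Θ h0 h1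
  rcases h0.eq_or_lt with h0 | h0
  · rw [← h0]; norm_num
  rcases h1.eq_or_lt with h1 | h1
  · rw [h1]; norm_num
  have h := Vale.Agent.P331.H830.bessel_ind (E := E) h0 h1
    (fun ω => D (univ.filter fun e => ω e = true))
  have h2 : ∀ b, EX (Vale.Agent.P331.H830.bw fun _ : E => Θ)
      (Vale.Agent.P331.H830.dif (fun ω => if D (univ.filter fun e => ω e = true) then (1 : ℝ)
        else 0) b) = Jn D Θ b := by
    intro b
    unfold Jn thin
    rw [tw_eq_bw]
    congr 1
    funext ω
    have e1 : (univ.filter fun e => Function.update ω b true e = true) =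
        insert b (univ.filter fun e => ω e = true) := by
      ext e
      by_cases he : e = b
      · subst he; simp
      · simp [he]
    have e2 : (univ.filter fun e => Function.update ω b false e = true) =
        (univ.filter fun e => ω e = true).erase b := by
      ext e
      by_cases he : e = b
      · subst he; simp
      · simp [he]
    have hF : ((univ : Finset E).filter fun e => ω e = true) = univ.filter fun e => ω e = true :=
      rfl
    unfold Vale.Agent.P331.H830.dif
    simp only [e1, e2]
    unfold ind Piv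
    by_cases ha : D (insert b (univ.filter fun e => ω e = true))
    · by_cases hb : D ((univ.filter fun e => ω e = true).erase b)
      · simp [ha, hb]
      · simp [ha, hb]
    · have hb : ¬ D ((univ.filter fun e => ω e = true).erase b) := fun hc =>
        ha (hD _ _ ((erase_subset _ _).trans (subset_insert _ _)) hc)
      simp [ha, hb]
  simp only [h2] at h
  have h3 : 0 < Θ * (1 - Θ) := mul_pos h0 (by linarith)
  have h4 : Θ * (1 - Θ) * ∑ b, Jn D Θ b ^ 2 ≤ Θ * (1 - Θ) * (1 / (4 * (Θ * (1 - Θ)))) :=
    mul_le_mul_of_nonneg_left h h3.le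
  refine h4.trans ?_
  have : Θ * (1 - Θ) * (1 / (4 * (Θ * (1 - Θ)))) = 1 / 4 := by
    field_simp
  rw [this]
  norm_num

section

variable {E : Type} [Fintype E] {M : Matroid E} {lt : E → E → Prop}

open Vale.Agent.P331.H830 in
/-- entrance is unique, any ground set -/
theorem piv_unique' (hlt : IsStrictTotalOrder E lt) {b z₁ z₂ : E}
    {P : E → Prop} (hz₁ : P z₁) (hz₂ : P z₂) (h₁ : piv M lt z₁ b P) (h₂ : piv M lt z₂ b P) :
    z₁ = z₂ := by
  by_contra hne
  have key : ∀ x y : E, P x → lt y x → piv M lt x b P → piv M lt y b P → False := by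
    intro x y hx hyx h1 h2
    have hxb : x ≠ b := by
      rintro rfl
      exact hlt.irrefl x (piv_lt h1)
    have hcl : x ∈ M.closure (insert b {e | lt x e ∧ (e ≠ b ∧ P e)}) := by
      refine M.closure_subset_closure ?_ h1.1
      rintro e ⟨h3, h4⟩
      by_cases heb : e = b
      · exact Or.inl heb
      · exact Or.inr ⟨h3, heb, h4.resolve_left heb⟩
    have hb : b ∈ M.closure (insert x {e | lt x e ∧ (e ≠ b ∧ P e)}) :=
      (M.closure_exchange ⟨hcl, h1.2⟩).1
    have hb2 : b ∈ M.closure {e | lt y e ∧ (e ≠ b ∧ P e)} := by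
      refine M.closure_subset_closure ?_ hb
      rintro e (rfl | ⟨h3, h4⟩)
      · exact ⟨hyx, hxb, hx⟩
      · exact ⟨hlt.trans _ _ _ hyx h3, h4⟩
    apply h2.2
    have hsub : {e | lt y e ∧ (e = b ∨ P e)} ∩ M.E ⊆
        M.closure {e | lt y e ∧ (e ≠ b ∧ P e)} := by
      rintro e ⟨⟨h3, h4⟩, hE⟩
      by_cases heb : e = b
      · rw [heb]; exact hb2
      · rw [← M.closure_inter_ground]
        exact M.subset_closure _ Set.inter_subset_right
          ⟨⟨h3, heb, h4.resolve_left heb⟩, hE⟩
    have h5 := h2.1
    unfold cov at h5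
    rw [← M.closure_inter_ground] at h5
    exact M.closure_subset_closure_of_subset_closure hsub h5
  by_cases h12 : lt z₁ z₂
  · exact key z₂ z₁ hz₂ h12 h₂ h₁
  · by_cases h21 : lt z₂ z₁
    · exact key z₁ z₂ hz₁ h21 h₁ h₂
    · exact hne (hlt.trichotomous z₁ z₂ h12 h21)

open Vale.Agent.P331.H830 in
theorem entrance_gen (hlt : IsStrictTotalOrder E lt) {q : E → ℝ}
    (h0 : ∀ e, 0 ≤ q e) (h1 : ∀ e, q e ≤ 1) (b : E) :
    ∑ z, q z * EX (bw q) (fun ω => if piv M lt z b (fun e => ω e = true) then 1 else 0) ≤ 1 := by
  have hz : ∀ z, q z * EX (bw q) (fun ω => if piv M lt z b (fun e => ω e = true) then 1 else 0) =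
      EX (bw q) (fun ω => if ω z = true then
        (if piv M lt z b (fun e => ω e = true) then (1 : ℝ) else 0) else 0) := by
    intro z
    rw [EX_indep]
    intro ω l
    have : piv M lt z b (fun e => Function.update ω z l e = true) ↔
        piv M lt z b (fun e => ω e = true) := by
      refine piv_congr fun e he => ?_
      have hne : e ≠ z := by rintro rfl; exact hlt.irrefl e he
      rw [Function.update_of_ne hne]
    simp only [this]
  simp only [hz]
  rw [← EX_sum univ (bw q) (fun z ω => if ω z = true then
        (if piv M lt z b (fun e => ω e = true) then (1 : ℝ) else 0) else 0)]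
  refine (EX_mono (bw_nonneg h0 h1) (G := fun _ => 1) fun ω => ?_).trans
    (le_of_eq (EX_one _ (sum_bw q) 1))
  have h2 : ∀ z, (if ω z = true then (if piv M lt z b (fun e => ω e = true) then (1 : ℝ) else 0)
      else 0) = if ω z = true ∧ piv M lt z b (fun e => ω e = true) then 1 else 0 := by
    intro z
    by_cases h3 : ω z = true
    · simp [h3]
    · simp [h3]
  simp only [h2]
  rw [← sum_filter, sum_const, nsmul_eq_mul, mul_one]
  have h4 : (univ.filter fun z => ω z = true ∧ piv M lt z b (fun e => ω e = true)).card ≤ 1 := by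
    refine card_le_one.2 fun x hx y hy => ?_
    obtain ⟨_, hx1, hx2⟩ := mem_filter.1 hx
    obtain ⟨_, hy1, hy2⟩ := mem_filter.1 hy
    exact piv_unique' hlt (P := fun e => ω e = true) hx1 hy1 hx2 hy2
  exact_mod_cast h4

end

/-- **ROW ENT** -/
theorem rowENT : RowENT := by
  intro E _ M lt hlt Θ h0 h1 b
  have h := entrance_gen (M := M) (lt := lt) hlt (q := fun _ : E => Θ) (fun _ => h0)
    (fun _ => h1) b
  rw [← mul_sum] at h
  refine le_trans (mul_le_mul_of_nonneg_left ?_ h0) h
  have h2 : ∀ z, Jn (fun U : Finset E => cov M lt z fun e => e ∈ U) Θ b =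
      EX (Vale.Agent.P331.H830.bw fun _ => Θ) (fun ω => if
        Vale.Agent.P331.H830.piv M lt z b (fun e => ω e = true) then (1 : ℝ) else 0) := by
    intro z
    unfold Jn thin
    rw [tw_eq_bw]
    congr 1
    funext ω
    unfold ind
    have e1 : (Piv (fun U : Finset E => cov M lt z fun e => e ∈ U) b
        (univ.filter fun e => ω e = true)) ↔
        Vale.Agent.P331.H830.piv M lt z b (fun e => ω e = true) := by
      unfold Piv Vale.Agent.P331.H830.piv
      simp only [mem_insert, mem_filter, mem_univ, true_and, mem_erase]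
    by_cases hP : Piv (fun U : Finset E => cov M lt z fun e => e ∈ U) b
        (univ.filter fun e => ω e = true)
    · exact (if_pos hP).trans (if_pos (e1.1 hP)).symm
    · exact (if_neg hP).trans (if_neg fun hc => hP (e1.2 hc)).symm
  rw [sum_congr rfl fun z _ => h2 z]
  refine sum_le_sum_of_subset_of_nonneg (erase_subset _ _) fun z _ _ => ?_
  exact EX_nonneg (Vale.Agent.P331.H830.bw_nonneg (fun _ => h0) fun _ => h1) fun _ => by
    split_ifs <;> norm_num

end Vale.Agent.P331.H316
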