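import Vale.Agent.P331.H316.HC

/-!
# Pool and outer noise together; the blame
-/

set_option autoImplicit false
set_option linter.unusedSectionVars false
set_option linter.unusedVariables false

namespace Vale.Agent.P331.H316

open Finset Vale.Agent.P331.H489
open scoped Classical

/-- the merged label -/
def mg : L4 × (Bool × Bool) → L4
  | (.v, _) => .v
  | (.s, (a, b)) => if a = true ∨ b = true then .s else .o
  | (.i, _) => .i
  | (.o, _) => .o

theorem mg_w (p s₁ s₂ g n : ℝ) (c : L4) :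
    ∑ l with mg l = c, w4 p s₁ s₂ l.1 * (tw g l.2.1 * tw n l.2.2) =
      w4 p (s₁ * (g + (1 - g) * n)) s₂ c := by
  rw [sum_filter, Fintype.sum_prod_type, sum_L4]
  simp only [Fintype.sum_prod_type, sum_bool, tw, mg]
  cases c <;> simp [w4] <;> ring

section

variable {E : Type} [Fintype E]

theorem thin_mono {τ : ℝ} (h0 : 0 ≤ τ) (h1 : τ ≤ 1) {S : Finset E} {F G : Finset E → ℝ}
    (h : ∀ U, F U ≤ G U) : thin τ S F ≤ thin τ S G :=
  EX_mono (fun _ b => tw_nonneg h0 h1 b) fun _ => h _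

theorem ind_mono {P Q : Prop} (h : P → Q) : ind P ≤ ind Q := by
  by_cases hP : P
  · rw [ind_true hP, ind_true (h hP)]
  · rw [ind_false hP]
    exact ind_nonneg' Q

/-- pool and outer noise together are a thinning of the sample -/
theorem PR_merge (p s₁ s₂ g n : ℝ) (F : Finset E → Finset E → Finset E → ℝ) :
    PR p s₁ s₂ (fun V R I => thin g R fun G => thin n (R \ G) fun N => F V (G ∪ N) I) =
      PR p (s₁ * (g + (1 - g) * n)) s₂ F := by
  unfold PR thin
  have h1 : ∀ κ : E → L4, (EX (fun _ : E => tw g) fun a : E → Bool =>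
      EX (fun _ : E => tw n) fun b : E → Bool =>
        F (cls κ .v) ((cls κ .s).filter (fun e => a e = true) ∪
          (cls κ .s \ (cls κ .s).filter (fun e => a e = true)).filter (fun e => b e = true))
          (cls κ .i)) =
      EX (fun (_ : E) (x : Bool × Bool) => tw g x.1 * tw n x.2) (fun τ =>
        F (cls (fun e => mg (κ e, τ e)) .v) (cls (fun e => mg (κ e, τ e)) .s)
          (cls (fun e => mg (κ e, τ e)) .i)) := by
    intro κ
    have h2 := EX_prod (fun _ : E => tw g) (fun _ : E => tw n)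
      (fun a b => F (cls (fun e => mg (κ e, (a e, b e))) .v)
        (cls (fun e => mg (κ e, (a e, b e))) .s) (cls (fun e => mg (κ e, (a e, b e))) .i))
    refine Eq.trans ?_ h2.symm
    congr 1
    funext a
    congr 1
    funext b
    have e1 : cls (fun e => mg (κ e, (a e, b e))) .v = cls κ .v := by
      ext e
      simp only [cls, mem_filter, mem_univ, true_and]
      rcases κ e with _ | _ | _ | _ <;> simp [mg]
      split_ifs <;> simp
    have e2 : cls (fun e => mg (κ e, (a e, b e))) .i = cls κ .i := by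
      ext e
      simp only [cls, mem_filter, mem_univ, true_and]
      rcases κ e with _ | _ | _ | _ <;> simp [mg]
      split_ifs <;> simp
    have e3 : cls (fun e => mg (κ e, (a e, b e))) .s =
        (cls κ .s).filter (fun e => a e = true) ∪
          (cls κ .s \ (cls κ .s).filter (fun e => a e = true)).filter (fun e => b e = true) := by
      ext e
      simp only [cls, mem_filter, mem_univ, true_and, mem_union, mem_sdiff]
      rcases κ e with _ | _ | _ | _ <;> simp [mg]
      rcases a e <;> rcases b e <;> simp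
    rw [e1, e2, e3]
  simp only [h1]
  have h3 := EX_prod (fun _ : E => w4 p s₁ s₂)
    (fun (_ : E) (x : Bool × Bool) => tw g x.1 * tw n x.2)
    (fun κ τ => F (cls (fun e => mg (κ e, τ e)) .v) (cls (fun e => mg (κ e, τ e)) .s)
          (cls (fun e => mg (κ e, τ e)) .i))
  rw [← h3]
  have h4 := EX_push mg
    (fun (_ : E) (l : L4 × (Bool × Bool)) => w4 p s₁ s₂ l.1 * (tw g l.2.1 * tw n l.2.2))
    (fun κ : E → L4 => F (cls κ .v) (cls κ .s) (cls κ .i))
  refine Eq.trans ?_ (h4.trans ?_)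
  · rfl
  · congr 1
    funext e c
    exact mg_w p s₁ s₂ g n c

theorem rel_mono {D : Finset E → Prop} {t dl : ℝ} {kap : ℕ} {I X Y : Finset E} {b : E}
    {W : Finset E} (h : X ⊆ Y) (hr : rel D t dl kap I X b W) : rel D t dl kap I Y b W := by
  obtain ⟨U, hU, h1, h2⟩ := hr
  exact ⟨U, hU.trans (erase_subset_erase b h), h1, h2⟩

theorem rho_mono {D : Finset E → Prop} {g n t dl : ℝ} (hg : 0 ≤ g) (hg1 : g ≤ 1) (hn : 0 ≤ n)
    (hn1 : n ≤ 1) {kap : ℕ} {R I X Y : Finset E} {b : E} (h : X ⊆ Y) :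
    rho D g n t dl kap R I X b ≤ rho D g n t dl kap R I Y b :=
  thin_mono hg hg1 fun _ => thin_mono hn hn1 fun _ => ind_mono fun hr => rel_mono h hr

theorem PR_mono {p s₁ s₂ : ℝ} (hp : 0 ≤ p) (h1 : 0 ≤ s₁) (h2 : 0 ≤ s₂) (hs : p + s₁ + s₂ ≤ 1)
    {F G : Finset E → Finset E → Finset E → ℝ} (h : ∀ V R I, F V R I ≤ G V R I) :
    PR p s₁ s₂ F ≤ PR p s₁ s₂ G :=
  EX_mono (fun _ l => w4_nonneg hp h1 h2 hs l) fun _ => h _ _ _

/-- the estimate for one element -/
theorem piv_event {q : ℕ} {p x s t th : ℝ} (hq : 1 ≤ q) (hp : 0 ≤ p) (hx : 0 ≤ x) (hs : 0 ≤ s)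
    (hsum : p + x + s ≤ 1) (ht : 0 ≤ t) (ht1 : t ≤ 1) (h0 : 0 ≤ th) (h1 : th ≤ 1)
    (hone : OneC q p x s t th) (D : Finset E → Prop) (b : E) (kap : ℕ) {dl : ℝ}
    (hdl : 0 ≤ dl) :
    (th ^ kap * dl) ^ (2 * q) * PR p x s (fun V X I => ind (rel D t dl kap I V b X)) ≤
      Jn D (x + s * t) b ^ q := by
  have h2 := rowHC q p x s t th hq hp hx hs hsum ht ht1 h0 h1 hone E (fun U => ind (Piv D b U))
    (fun U => ind_nonneg' _) kap dl hdl
  have h3 : (thin (x + s * t) univ fun U : Finset E => ind (Piv D b U) ^ 2) =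
      Jn D (x + s * t) b := by
    unfold Jn
    congr 1
    funext U
    by_cases hP : Piv D b U
    · rw [ind_true hP]; norm_num
    · rw [ind_false hP]; norm_num
  rw [h3] at h2
  refine le_trans (mul_le_mul_of_nonneg_left ?_ (by rw [pow_mul]; positivity)) h2
  refine PR_mono hp hx hs hsum fun V X I => ind_mono ?_
  rintro ⟨U, hU, hc, hd⟩
  exact ⟨U, hU.trans (erase_subset b V), hc, hd⟩

end

/-- **ROW CH** -/
theorem rowCH : RowCH := by
  intro q p s₁ s₂ th P hq hp h1 h2 hs hg hg1 hn hn1 ht ht1 hth hth1 hone E _ D b j hdl heta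
  have hx0 : 0 ≤ xr s₁ P := mul_nonneg h1 (add_nonneg hg (mul_nonneg (by linarith) hn))
  have hx1 : xr s₁ P ≤ s₁ := by
    unfold xr
    have : P.g + (1 - P.g) * P.n ≤ 1 := by nlinarith
    nlinarith
  have hA := piv_event hq hp hx0 h2 (by linarith) ht ht1 hth hth1 hone D b (P.kap j) hdl
  rw [show Th s₁ s₂ P = xr s₁ P + s₂ * P.t from rfl]
  refine le_trans ?_ hA
  have hB : P.eta j * PR (E := E) p s₁ s₂ (fun V R I => ind (∃ X ⊆ V, sig D P R I j X b)) ≤
      PR p (xr s₁ P) s₂ (fun V X I => ind (rel D P.t (P.dl j) (P.kap j) I V b X)) := by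
    have hm := PR_merge p s₁ s₂ P.g P.n
      (fun V X I => ind (rel D P.t (P.dl j) (P.kap j) I V b X))
    rw [show xr s₁ P = s₁ * (P.g + (1 - P.g) * P.n) from rfl, ← hm]
    unfold PR
    rw [← EX_mul]
    refine EX_mono (fun _ l => w4_nonneg hp h1 h2 hs l) fun κ => ?_
    beta_reduce
    by_cases hX : ∃ X ⊆ cls κ .v, sig D P (cls κ .s) (cls κ .i) j X b
    · rw [ind_true hX, mul_one]
      obtain ⟨X, hXV, hsig⟩ := hX
      exact le_trans hsig (rho_mono hg hg1 hn hn1 hXV)
    · rw [ind_false hX, mul_zero]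
      exact EX_nonneg (fun _ b => tw_nonneg hg hg1 b) fun _ =>
        EX_nonneg (fun _ b => tw_nonneg hn hn1 b) fun _ => ind_nonneg' _
  have hC : 0 ≤ (th ^ P.kap j * P.dl j) ^ (2 * q) := by rw [pow_mul]; positivity
  calc _ = (th ^ P.kap j * P.dl j) ^ (2 * q) * (P.eta j *
        PR (E := E) p s₁ s₂ (fun V R I => ind (∃ X ⊆ V, sig D P R I j X b))) := by ring
    _ ≤ _ := mul_le_mul_of_nonneg_left hB hC

end Vale.Agent.P331.H316
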