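import Vale.Agent.P331.H316.Rows

/-!
# The hypercontractive estimate with the supremum over small contexts
-/

set_option autoImplicit false
set_option linter.unusedSectionVars false
set_option linter.unusedVariables false

namespace Vale.Agent.P331.H316

open Finset Vale.Agent.P331.H489
open scoped Classical

theorem ind_nonneg' (P : Prop) : 0 ≤ ind P := by
  unfold ind
  split_ifs <;> norm_num

theorem ind_true {P : Prop} (h : P) : ind P = 1 := if_pos h

theorem ind_false {P : Prop} (h : ¬ P) : ind P = 0 := if_neg h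

theorem tw_nonneg {τ : ℝ} (h0 : 0 ≤ τ) (h1 : τ ≤ 1) (b : Bool) : 0 ≤ tw τ b := by
  unfold tw
  split_ifs
  · exact h0
  · linarith

theorem sum_tw (τ : ℝ) : ∑ b, tw τ b = 1 := by
  rw [sum_bool]
  simp [tw]

theorem w4_nonneg {p x s : ℝ} (hp : 0 ≤ p) (hx : 0 ≤ x) (hs : 0 ≤ s) (h : p + x + s ≤ 1)
    (l : L4) : 0 ≤ w4 p x s l := by
  cases l with
  | v => exact hp
  | s => exact hx
  | i => exact hs
  | o => simp only [w4]; linarith

/-- the resulting bit -/
def mixb : L4 → Bool → Bool → Bool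
  | .v, y, _ => y
  | .s, _, _ => true
  | .i, _, c => c
  | .o, _, _ => false

/-- the recursive majorant -/
noncomputable def MX (t th : ℝ) : (n : ℕ) → ((Fin n → Bool) → ℝ) → (Fin n → L4) → ℝ
  | 0, φ, _ => φ Fin.elim0
  | n + 1, φ, μ =>
    match μ 0 with
    | .v => max (MX t th n (fun ν => φ (Fin.cons false ν)) (fun i => μ i.succ))
        (th * MX t th n (fun ν => φ (Fin.cons true ν)) (fun i => μ i.succ))
    | .s => MX t th n (fun ν => φ (Fin.cons true ν)) (fun i => μ i.succ)
    | .i => (1 - t) * MX t th n (fun ν => φ (Fin.cons false ν)) (fun i => μ i.succ) +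
        t * MX t th n (fun ν => φ (Fin.cons true ν)) (fun i => μ i.succ)
    | .o => MX t th n (fun ν => φ (Fin.cons false ν)) (fun i => μ i.succ)

theorem MX_nonneg {t th : ℝ} (ht : 0 ≤ t) (ht1 : t ≤ 1) : ∀ (n : ℕ) (φ : (Fin n → Bool) → ℝ)
    (_ : ∀ ν, 0 ≤ φ ν) (μ : Fin n → L4), 0 ≤ MX t th n φ μ
  | 0, φ, h, _ => h _
  | n + 1, φ, h, μ => by
    have ih := fun l => MX_nonneg (th := th) ht ht1 n (fun ν => φ (Fin.cons l ν)) (fun ν => h _)
      (fun i => μ i.succ)
    rw [MX]
    cases μ 0 with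
    | v => exact le_max_of_le_left (ih _)
    | s => exact ih _
    | i => exact add_nonneg (mul_nonneg (by linarith) (ih _)) (mul_nonneg ht (ih _))
    | o => exact ih _

/-- the triangle inequality in `L^q`, in the form needed for the induction -/
theorem mink {n : ℕ} {w : Fin n → L4 → ℝ} (hw : ∀ i l, 0 ≤ w i l) {X Y : (Fin n → L4) → ℝ}
    (hX : ∀ μ, 0 ≤ X μ) (hY : ∀ μ, 0 ≤ Y μ) {θ c₀ c₁ : ℝ} (h0 : 0 ≤ θ) (h1 : θ ≤ 1)
    (hc₀ : 0 ≤ c₀) (hc₁ : 0 ≤ c₁) {q : ℕ} (hX' : EX w (fun μ => X μ ^ q) ≤ c₀ ^ q)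
    (hY' : EX w (fun μ => Y μ ^ q) ≤ c₁ ^ q) :
    EX w (fun μ => ((1 - θ) * X μ + θ * Y μ) ^ q) ≤ ((1 - θ) * c₀ + θ * c₁) ^ q := by
  have key : ∀ ε : ℝ, 0 < ε → EX w (fun μ => ((1 - θ) * X μ + θ * Y μ) ^ q) ≤
      ((1 - θ) * c₀ + θ * c₁ + ε) ^ q := by
    intro ε hε
    set a := c₀ + ε with ha
    set b := c₁ + ε with hb
    have ha0 : 0 < a := by linarith
    have hb0 : 0 < b := by linarith
    have hC : (1 - θ) * c₀ + θ * c₁ + ε = (1 - θ) * a + θ * b := by rw [ha, hb]; ring
    rw [hC]
    set C := (1 - θ) * a + θ * b with hCdef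
    have hC0 : 0 < C := by
      rw [← hC]
      have := mul_nonneg (sub_nonneg.2 h1) hc₀
      have := mul_nonneg h0 hc₁
      linarith
    set u := (1 - θ) * a / C with hu
    set v := θ * b / C with hv
    have hu0 : 0 ≤ u := div_nonneg (mul_nonneg (by linarith) ha0.le) hC0.le
    have hv0 : 0 ≤ v := div_nonneg (mul_nonneg h0 hb0.le) hC0.le
    have huv : u + v = 1 := by
      rw [hu, hv, ← add_div, ← hCdef]
      exact div_self hC0.ne'
    have hpt : ∀ μ, ((1 - θ) * X μ + θ * Y μ) ^ q ≤
        C ^ q * (u / a ^ q) * X μ ^ q + C ^ q * (v / b ^ q) * Y μ ^ q := by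
      intro μ
      have e1 : (1 - θ) * X μ + θ * Y μ = C * (u * (X μ / a) + v * (Y μ / b)) := by
        rw [hu, hv]
        field_simp
      have e2 := (convexOn_pow q).2 (x := X μ / a) (y := Y μ / b)
        (show X μ / a ∈ Set.Ici (0 : ℝ) from div_nonneg (hX μ) ha0.le)
        (show Y μ / b ∈ Set.Ici (0 : ℝ) from div_nonneg (hY μ) hb0.le) hu0 hv0 huv
      simp only [smul_eq_mul] at e2
      rw [e1, mul_pow]
      refine (mul_le_mul_of_nonneg_left e2 (pow_nonneg hC0.le q)).trans (le_of_eq ?_)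
      rw [div_pow, div_pow]
      ring
    have h2 := EX_mono hw hpt
    rw [EX_add, EX_mul, EX_mul] at h2
    refine h2.trans ?_
    have hCq : 0 ≤ C ^ q := pow_nonneg hC0.le q
    have h3 : C ^ q * (u / a ^ q) * EX w (fun μ => X μ ^ q) ≤ C ^ q * u := by
      have h4 : EX w (fun μ => X μ ^ q) ≤ a ^ q :=
        hX'.trans (pow_le_pow_left₀ hc₀ (by linarith) q)
      have h5 : C ^ q * (u / a ^ q) * EX w (fun μ => X μ ^ q) ≤ C ^ q * (u / a ^ q) * a ^ q :=
        mul_le_mul_of_nonneg_left h4 (mul_nonneg hCq (div_nonneg hu0 (pow_nonneg ha0.le q)))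
      refine h5.trans (le_of_eq ?_)
      have := (pow_pos ha0 q).ne'
      field_simp
    have h3' : C ^ q * (v / b ^ q) * EX w (fun μ => Y μ ^ q) ≤ C ^ q * v := by
      have h4 : EX w (fun μ => Y μ ^ q) ≤ b ^ q :=
        hY'.trans (pow_le_pow_left₀ hc₁ (by linarith) q)
      have h5 : C ^ q * (v / b ^ q) * EX w (fun μ => Y μ ^ q) ≤ C ^ q * (v / b ^ q) * b ^ q :=
        mul_le_mul_of_nonneg_left h4 (mul_nonneg hCq (div_nonneg hv0 (pow_nonneg hb0.le q)))
      refine h5.trans (le_of_eq ?_)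
      have := (pow_pos hb0 q).ne'
      field_simp
    calc _ ≤ C ^ q * u + C ^ q * v := add_le_add h3 h3'
      _ = C ^ q := by rw [← mul_add, huv, mul_one]
  have hcont : Filter.Tendsto (fun ε : ℝ => ((1 - θ) * c₀ + θ * c₁ + ε) ^ q)
      (nhdsWithin 0 (Set.Ioi 0)) (nhds (((1 - θ) * c₀ + θ * c₁ + 0) ^ q)) := by
    have : Continuous fun ε : ℝ => ((1 - θ) * c₀ + θ * c₁ + ε) ^ q := by fun_prop
    exact (this.tendsto 0).mono_left nhdsWithin_le_nhds
  rw [add_zero] at hcont
  refine ge_of_tendsto hcont ?_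
  filter_upwards [self_mem_nhdsWithin] with ε hε
  exact key ε hε

theorem HC_fin {q : ℕ} {p x s t th : ℝ} (hp : 0 ≤ p) (hx : 0 ≤ x) (hs : 0 ≤ s)
    (hsum : p + x + s ≤ 1) (ht : 0 ≤ t) (ht1 : t ≤ 1) (hone : OneC q p x s t th) :
    ∀ (n : ℕ) (φ : (Fin n → Bool) → ℝ) (_ : ∀ ν, 0 ≤ φ ν),
    EX (fun _ : Fin n => w4 p x s) (fun μ => (MX t th n φ μ) ^ (2 * q)) ≤
      (EX (fun _ : Fin n => tw (x + s * t)) (fun ν => φ ν ^ 2)) ^ q
  | 0, φ, _ => by
    simp only [EX, Fintype.sum_unique, univ_eq_empty, prod_empty, one_mul, MX]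
    rw [pow_mul]
    exact le_of_eq (congrArg (fun ν => ((φ ν) ^ 2) ^ q) (Subsingleton.elim _ _))
  | n + 1, φ, hφ => by
    have ih := fun l => HC_fin hp hx hs hsum ht ht1 hone n (fun ν => φ (Fin.cons l ν))
      (fun ν => hφ _)
    have hΘ0 : 0 ≤ x + s * t := add_nonneg hx (mul_nonneg hs ht)
    have hΘ1 : x + s * t ≤ 1 := by nlinarith
    rw [EX_cons, EX_cons, sum_L4, sum_bool]
    set A := fun l (μ : Fin n → L4) => MX t th n (fun ν => φ (Fin.cons l ν)) μ with hA
    have hA0 : ∀ l μ, 0 ≤ A l μ := fun l μ => MX_nonneg ht ht1 n _ (fun ν => hφ _) μ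
    have e1 : ∀ μ : Fin n → L4, MX t th (n + 1) φ (Fin.cons .v μ) =
        max (A false μ) (th * A true μ) := fun μ => rfl
    have e2 : ∀ μ : Fin n → L4, MX t th (n + 1) φ (Fin.cons .s μ) = A true μ := fun μ => rfl
    have e3 : ∀ μ : Fin n → L4, MX t th (n + 1) φ (Fin.cons .i μ) =
        (1 - t) * A false μ + t * A true μ := fun μ => rfl
    have e4 : ∀ μ : Fin n → L4, MX t th (n + 1) φ (Fin.cons .o μ) = A false μ := fun μ => rfl
    simp only [e1, e2, e3, e4]
    have key : w4 p x s .v * EX (fun _ : Fin n => w4 p x s)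
        (fun μ => (max (A false μ) (th * A true μ)) ^ (2 * q)) +
        w4 p x s .s * EX (fun _ : Fin n => w4 p x s) (fun μ => (A true μ) ^ (2 * q)) +
        w4 p x s .i * EX (fun _ : Fin n => w4 p x s)
          (fun μ => ((1 - t) * A false μ + t * A true μ) ^ (2 * q)) +
        w4 p x s .o * EX (fun _ : Fin n => w4 p x s) (fun μ => (A false μ) ^ (2 * q)) ≤
        EX (fun _ : Fin n => w4 p x s) (fun μ =>
          ((1 - (x + s * t)) * (A false μ) ^ 2 + (x + s * t) * (A true μ) ^ 2) ^ q) := by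
      rw [← EX_mul, ← EX_mul, ← EX_mul, ← EX_mul, ← EX_add, ← EX_add, ← EX_add]
      refine EX_mono (fun i l => w4_nonneg hp hx hs hsum l) fun μ => ?_
      have := hone (A false μ) (A true μ) (hA0 false μ) (hA0 true μ)
      simp only [w4]
      linarith
    refine key.trans ?_
    have hmink := mink (w := fun _ : Fin n => w4 p x s)
      (fun i l => w4_nonneg hp hx hs hsum l) (X := fun μ => (A false μ) ^ 2)
      (Y := fun μ => (A true μ) ^ 2) (fun μ => by positivity) (fun μ => by positivity)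
      hΘ0 hΘ1 (c₀ := EX (fun _ : Fin n => tw (x + s * t)) (fun ν => φ (Fin.cons false ν) ^ 2))
      (c₁ := EX (fun _ : Fin n => tw (x + s * t)) (fun ν => φ (Fin.cons true ν) ^ 2))
      (EX_nonneg (fun _ l => tw_nonneg hΘ0 hΘ1 l) fun _ => by positivity)
      (EX_nonneg (fun _ l => tw_nonneg hΘ0 hΘ1 l) fun _ => by positivity) (q := q)
      (by simpa only [← pow_mul] using ih false) (by simpa only [← pow_mul] using ih true)
    refine hmink.trans (le_of_eq ?_)
    simp only [tw, if_true, Bool.false_eq_true, if_false]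
    congr 1
    ring

theorem le_MX {t th : ℝ} (ht : 0 ≤ t) (ht1 : t ≤ 1) (h0 : 0 ≤ th) : ∀ (n : ℕ)
    (φ : (Fin n → Bool) → ℝ) (_ : ∀ ν, 0 ≤ φ ν) (μ : Fin n → L4) (y : Fin n → Bool),
    (∏ i, if μ i = .v ∧ y i = true then th else 1) *
      EX (fun _ => tw t) (fun c : Fin n → Bool => φ fun i => mixb (μ i) (y i) (c i)) ≤
      MX t th n φ μ
  | 0, φ, _, μ, y => by
    simp only [EX, Fintype.sum_unique, univ_eq_empty, prod_empty, one_mul, MX]
    exact le_of_eq (congrArg φ (Subsingleton.elim _ _))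
  | n + 1, φ, hφ, μ, y => by
    have ih := fun l => le_MX ht ht1 h0 n (fun ν => φ (Fin.cons l ν)) (fun ν => hφ _)
      (fun i => μ i.succ) (fun i => y i.succ)
    rw [Fin.prod_univ_succ, EX_cons, sum_bool, MX]
    have e : ∀ (b : Bool) (c : Fin n → Bool),
        (fun i : Fin (n + 1) => mixb (μ i) (y i) ((Fin.cons b c : Fin (n + 1) → Bool) i)) =
        Fin.cons (mixb (μ 0) (y 0) b) (fun i => mixb (μ i.succ) (y i.succ) (c i)) := by
      intro b c
      funext i
      refine Fin.cases ?_ (fun i => ?_) i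
      · rfl
      · rfl
    simp only [e]
    set P := ∏ i : Fin n, if μ i.succ = .v ∧ y i.succ = true then th else 1 with hP
    have hP0 : 0 ≤ P := prod_nonneg fun i _ => by split_ifs <;> linarith
    set G := fun l => EX (fun _ => tw t)
      (fun c : Fin n → Bool => φ (Fin.cons l fun i => mixb (μ i.succ) (y i.succ) (c i))) with hG
    have hG0 : ∀ l, 0 ≤ G l := fun l => EX_nonneg (fun _ b => tw_nonneg ht ht1 b) fun _ => hφ _
    have ih' : ∀ l, P * G l ≤ MX t th n (fun ν => φ (Fin.cons l ν)) (fun i => μ i.succ) := ih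
    have ht' : tw t true = t := rfl
    have hf' : tw t false = 1 - t := by simp [tw]
    rw [ht', hf']
    rcases h : μ 0 with _ | _ | _ | _
    · -- v
      simp only [mixb]
      rcases hy : y 0 with _ | _
      · have h1 := ih' false
        simp only [true_and, Bool.false_eq_true, if_false, one_mul]
        refine le_max_of_le_left ?_
        change P * (t * G false + (1 - t) * G false) ≤ _
        linarith
      · have h1 := ih' true
        simp only [and_self, if_true]
        refine le_max_of_le_right ?_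
        change th * P * (t * G true + (1 - t) * G true) ≤ _
        have := mul_le_mul_of_nonneg_left h1 h0
        linarith
    · have h1 := ih' true
      simp only [mixb, reduceCtorEq, false_and, if_false, one_mul]
      change P * (t * G true + (1 - t) * G true) ≤ _
      linarith
    · have h1 := ih' true
      have h2 := ih' false
      simp only [mixb, reduceCtorEq, false_and, if_false, one_mul]
      change P * (t * G true + (1 - t) * G false) ≤ _
      have h3 := mul_le_mul_of_nonneg_left h1 ht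
      have h4 := mul_le_mul_of_nonneg_left h2 (sub_nonneg.2 ht1)
      linarith
    · have h1 := ih' false
      simp only [mixb, reduceCtorEq, false_and, if_false, one_mul]
      change P * (t * G false + (1 - t) * G false) ≤ _
      linarith

/-- **(HC)** -/
theorem rowHC : RowHC := by
  intro q p x s t th hq hp hx hs hsum ht ht1 h0 h1 hone E _ f hf kap dl hdl
  set σ := Fintype.equivFin E
  set n := Fintype.card E
  have hΘ0 : 0 ≤ x + s * t := add_nonneg hx (mul_nonneg hs ht)
  have hΘ1 : x + s * t ≤ 1 := by nlinarith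
  set φ : (Fin n → Bool) → ℝ := fun ν => f (univ.filter fun e => ν (σ e) = true) with hφ
  have hφ0 : ∀ ν, 0 ≤ φ ν := fun ν => hf _
  have a1 := HC_fin hp hx hs hsum ht ht1 hone n φ hφ0
  have a2 : thin (x + s * t) univ (fun U : Finset E => f U ^ 2) =
      EX (fun _ : Fin n => tw (x + s * t)) (fun ν => φ ν ^ 2) := by
    unfold thin
    rw [EX_reindex σ]
    rfl
  rw [a2]
  refine le_trans ?_ a1
  unfold PR
  rw [EX_reindex σ, ← EX_mul]
  refine EX_mono (fun i l => w4_nonneg hp hx hs hsum l) fun μ => ?_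
  beta_reduce
  by_cases hr : ∃ U ⊆ cls (μ ∘ σ) L4.v, U.card ≤ kap ∧
      dl ≤ thin t (cls (μ ∘ σ) .i) (fun N => f (U ∪ cls (μ ∘ σ) .s ∪ N))
  · rw [ind_true hr, mul_one]
    obtain ⟨U, hU, hc, hdlU⟩ := hr
    set y : Fin n → Bool := fun i => decide (σ.symm i ∈ U) with hy
    have b1 := le_MX (th := th) ht ht1 h0 n φ hφ0 μ y
    have b2 : thin t (cls (μ ∘ σ) .i) (fun N => f (U ∪ cls (μ ∘ σ) .s ∪ N)) =
        EX (fun _ => tw t) (fun c : Fin n → Bool => φ fun i => mixb (μ i) (y i) (c i)) := by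
      unfold thin
      rw [EX_reindex σ]
      congr 1
      funext c
      rw [hφ]
      dsimp only
      congr 1
      ext e
      simp only [mem_union, mem_filter, cls, mem_univ, true_and, Function.comp_apply]
      have hyU : y (σ e) = decide (e ∈ U) := by
        rw [hy]
        simp
      by_cases heU : e ∈ U
      · have hv : μ (σ e) = .v := by
          have := hU heU
          simpa [cls] using this
        rw [hv, hyU]
        simp [mixb, heU]
      · rw [hyU]
        rcases hμ : μ (σ e) with _ | _ | _ | _ <;> simp [mixb, heU]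
    rw [b2] at hdlU
    have b3 : th ^ kap ≤ ∏ i, if μ i = .v ∧ y i = true then th else 1 := by
      have c1 : (∏ i : Fin n, if y i = true then th else 1) ≤
          ∏ i, if μ i = .v ∧ y i = true then th else 1 := by
        refine prod_le_prod (fun i _ => by split_ifs <;> linarith) fun i _ => ?_
        by_cases hi : y i = true
        · rw [if_pos hi]
          split_ifs
          · exact le_rfl
          · exact h1
        · rw [if_neg hi, if_neg fun h => hi h.2]
      refine le_trans ?_ c1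
      rw [← prod_filter, prod_const]
      have c2 : (univ.filter fun i : Fin n => y i = true).card = U.card := by
        rw [← Finset.card_map σ.toEmbedding (s := U)]
        congr 1
        ext i
        simp [hy, Finset.mem_map_equiv]
      rw [c2]
      exact pow_le_pow_of_le_one h0 h1 hc
    have b4 : th ^ kap * dl ≤ MX t th n φ μ := by
      refine le_trans ?_ b1
      exact mul_le_mul b3 hdlU hdl (le_trans (pow_nonneg h0 kap) b3)
    exact pow_le_pow_left₀ (mul_nonneg (pow_nonneg h0 kap) hdl) b4 _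
  · rw [ind_false hr, mul_zero]
    exact pow_nonneg (MX_nonneg ht ht1 n φ hφ0 μ) _

end Vale.Agent.P331.H316
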