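import Vale.Agent.P331.H316.Defs
import Vale.Agent.P331.H489.Core
import Vale.Agent.P331.Defs

/-!
# The rows of the proof of note 19883 (statements only)
-/

set_option autoImplicit false
set_option linter.unusedSectionVars false
set_option linter.unusedVariables false

namespace Vale.Agent.P331.H316

open Finset Vale.Agent.P331.H489 Vale.Agent.P331
open scoped Classical ENNReal

/-- the one-coordinate inequality for (HC) -/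
def OneC (q : ℕ) (p x s t th : ℝ) : Prop :=
  ∀ a b : ℝ, 0 ≤ a → 0 ≤ b →
    (1 - p - x - s) * a ^ (2 * q) + x * b ^ (2 * q) + s * ((1 - t) * a + t * b) ^ (2 * q) +
      p * (max a (th * b)) ^ (2 * q) ≤ ((1 - (x + s * t)) * a ^ 2 + (x + s * t) * b ^ 2) ^ q

/-- ROW ONE: the one-coordinate inequality holds for small rates -/
def RowONE : Prop := ∀ q : ℕ, 1 ≤ q → ∃ t : ℝ, 0 < t ∧ t ≤ 1 / 2 ∧ ∃ x₀ : ℝ, 0 < x₀ ∧ x₀ ≤ 1 / 100 ∧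
  ∃ C : ℝ, 0 < C ∧ ∀ x p th : ℝ, 0 ≤ x → x ≤ x₀ → 0 ≤ p → p ≤ x₀ → 0 ≤ th → th ≤ 1 →
    C * p ≤ 1 - th → OneC q p x (1 / 4) t th

/-- ROW HC: the hypercontractive estimate with the supremum over small contexts inside `V` -/
def RowHC : Prop := ∀ (q : ℕ) (p x s t th : ℝ), 1 ≤ q → 0 ≤ p → 0 ≤ x → 0 ≤ s → p + x + s ≤ 1 →
  0 ≤ t → t ≤ 1 → 0 ≤ th → th ≤ 1 → OneC q p x s t th →
  ∀ (E : Type) [Fintype E] (f : Finset E → ℝ), (∀ U, 0 ≤ f U) → ∀ (kap : ℕ) (dl : ℝ), 0 ≤ dl →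
    (th ^ kap * dl) ^ (2 * q) * PR (E := E) p x s (fun V X I => ind (∃ U ⊆ V, U.card ≤ kap ∧
      dl ≤ thin t I (fun N => f (U ∪ X ∪ N)))) ≤ (thin (x + s * t) univ fun U => f U ^ 2) ^ q

/-- ROW BES: Bessel -/
def RowBES : Prop := ∀ (E : Type) [Fintype E] (D : Finset E → Prop), Up D → ∀ Θ : ℝ, 0 ≤ Θ →
  Θ ≤ 1 → Θ * (1 - Θ) * ∑ b, Jn D Θ b ^ 2 ≤ 1

/-- ROW ENT: the entrance sum -/
def RowENT : Prop := ∀ (E : Type) [Fintype E] (M : Matroid E) (lt : E → E → Prop)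
  [IsStrictTotalOrder E lt] (Θ : ℝ), 0 ≤ Θ → Θ ≤ 1 → ∀ b : E,
    Θ * ∑ z ∈ univ.erase b, Jn (fun U => cov M lt z fun e => e ∈ U) Θ b ≤ 1

/-- ROW DROP: dropping the elements outside the core, deterministic part -/
def RowDROP : Prop := ∀ (E : Type) [Fintype E] (D : Finset E → Prop), Up D → ∀ (P : Par)
  (R I : Finset E) (j : ℕ) (K : Finset E), 0 ≤ P.t → P.t ≤ 1 → 0 ≤ P.g → P.g ≤ 1 → 0 ≤ P.n →
  P.n ≤ 1 → 0 ≤ P.dl j → Disjoint K I →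
  ∃ st : E → Finset E, (∀ b ∈ K \ core D P R I j K, b ∈ st b ∧ st b ⊆ K ∧
      ¬ sig D P R I j (st b) b) ∧
    ∀ U ⊆ K, ∀ W : Finset E, Disjoint K W → U.card ≤ P.kap j →
      (∀ b ∈ K \ core D P R I j K, ¬ rel D P.t (P.dl j) (P.kap j) I (st b) b W) →
      psi D P.t I ((U ∩ core D P R I j K) ∪ W) ≤ psi D P.t I (U ∪ W) + P.kap j * P.dl j

/-- the rate of pool and outer noise together -/
noncomputable def xr (s₁ : ℝ) (P : Par) : ℝ := s₁ * (P.g + (1 - P.g) * P.n)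

/-- the natural rate -/
noncomputable def Th (s₁ s₂ : ℝ) (P : Par) : ℝ := xr s₁ P + s₂ * P.t

/-- ROW CORE: the elements outside the core are irrelevant with high probability -/
def RowCORE : Prop := ∀ (q : ℕ) (p s₁ s₂ th : ℝ) (P : Par), 2 ≤ q → 0 ≤ p → 0 ≤ s₁ → 0 ≤ s₂ →
  p + s₁ + s₂ ≤ 1 → 0 ≤ P.g → P.g ≤ 1 → 0 ≤ P.n → P.n ≤ 1 → 0 ≤ P.t → P.t ≤ 1 →
  0 < th → th ≤ 1 → 0 < Th s₁ s₂ P → Th s₁ s₂ P < 1 → OneC q p (xr s₁ P) s₂ P.t th →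
  ∀ (E : Type) [Fintype E] (D : Finset E → Prop), Up D → ∀ (j : ℕ) (ga : ℝ), 0 < ga →
    0 < P.dl j → 0 ≤ P.eta j →
  ∀ (K : Finset E → Finset E → Finset E → Finset E)
    (st : Finset E → Finset E → Finset E → E → Finset E),
    (∀ V R I, K V R I ⊆ V) →
    (∀ V R I, ∀ b ∈ K V R I \ core D P R I j (K V R I), st V R I b ⊆ K V R I ∧
      ¬ sig D P R I j (st V R I b) b) →
  PR p s₁ s₂ (fun V R I => thin P.g R fun G => thin P.n (R \ G) fun N =>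
      ind (∃ b ∈ K V R I \ core D P R I j (K V R I),
        rel D P.t (P.dl j) (P.kap j) I (st V R I b) b (G ∪ N))) ≤
    1 / (Th s₁ s₂ P * (1 - Th s₁ s₂ P)) * (P.eta j / ga ^ 2 +
      ga ^ (q - 2) / (th ^ P.kap j * P.dl j) ^ (2 * q))

/-- five labels: test set, removed pool, rest of the sample, frozen sample, others -/
inductive L5 | v | h | r | i | o
  deriving DecidableEq

instance : Fintype L5 := ⟨{.v, .h, .r, .i, .o}, by intro x; cases x <;> decide⟩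

/-- weights -/
noncomputable def w5' (p h r s : ℝ) : L5 → ℝ
  | .v => p
  | .h => h
  | .r => r
  | .i => s
  | .o => 1 - p - h - r - s

/-- expectation over five exclusive labels -/
noncomputable def PR5 {E : Type} [Fintype E] (p h r s : ℝ)
    (F : Finset E → Finset E → Finset E → Finset E → ℝ) : ℝ :=
  EX (fun _ : E => w5' p h r s) fun κ => F (cls κ .v) (cls κ .h) (cls κ .r) (cls κ .i)

/-- ROW SPLIT: a pool inside the sample is an exclusive label -/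
def RowSPLIT : Prop := ∀ (E : Type) [Fintype E] (p s₁ s₂ g : ℝ)
  (F : Finset E → Finset E → Finset E → Finset E → ℝ),
  PR p s₁ s₂ (fun V R I => thin g R fun H => F V H (R \ H) I) =
    PR5 p (s₁ * g) (s₁ * (1 - g)) s₂ F

/-- ROW JST: the exchange of the test set and of the removed pool -/
def RowJST : Prop := ∀ (E : Type) [Fintype E] (p h r s : ℝ), 0 < p → 0 ≤ h → 0 ≤ r → 0 ≤ s →
  p + h + r + s ≤ 1 →
  ∀ (Fam : Finset E → Finset E → Finset E → Prop),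
    (∀ R I A B, A ⊆ B → Fam R I A → Fam R I B) →
  ∀ (K : Finset E → Finset E → Finset E → Finset E → Finset E)
    (Ast : Finset E → Finset E → Finset E → Finset E → Prop),
    (∀ V H R I, Ast V H R I → K V H R I ⊆ V ∧ Fam R I (K V H R I)) →
  ∃ U : Finset E → Finset E → Finset E → Finset E → Finset E,
    (∀ V H R I, Disjoint V H → Ast V H R I → U V H R I ⊆ K V H R I ∧ Fam R I (H ∪ U V H R I)) ∧
    ∀ F : Finset E → Finset E → Finset E → ℝ, (∀ X R I, 0 ≤ F X R I) →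
      PR5 p h r s (fun V H R I => ind (Ast V H R I) * (h / p) ^ (U V H R I).card *
        F (H ∪ U V H R I) R I) ≤ PR5 p h r s (fun _ H R I => F H R I)

/-- ROW MK: passing to a subpool -/
def RowMK : Prop := ∀ (E : Type) [Fintype E] (D : Finset E → Prop) (g n t e lam zet lam' zet' : ℝ)
  (kap : ℕ), 0 ≤ g → g < 1 / 2 → 0 ≤ n → n * (1 - g) ≤ 1 - 2 * g → 0 ≤ t → t ≤ 1 → 0 ≤ lam →
  0 ≤ zet → 0 < lam' → 0 < zet' → ∀ R I A : Finset E,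
    BB D g n t e lam zet kap R I A →
    thin g R (fun H => ind (¬ BB D (g / (1 - g)) (n * (1 - g) / (1 - 2 * g)) t e lam' zet' kap
      (R \ H) I A)) ≤ (zet + lam / lam') / zet'

/-- ROW QJ: the zero gap inequality, in the form used by the step -/
def RowQJ : Prop := ∀ (E : Type) [Fintype E] (D : Finset E → Prop), Up D →
  ∀ (s₁ s₂ g n t e lam' zet' β : ℝ) (kap : ℕ), 0 ≤ s₁ → 0 ≤ s₂ → s₁ + s₂ ≤ 1 → 0 ≤ g →
  g ≤ 1 / 4 → 0 < n → n ≤ 1 / 4 → g / (1 - 2 * g) ≤ n * (1 - g) / (1 - 2 * g) / 10 → 0 ≤ t →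
  t ≤ 1 → 0 ≤ lam' → 0 ≤ zet' → 0 < β →
    PR (E := E) (s₁ * g) (s₁ * (1 - g)) s₂ (fun X R I =>
      ind (BB D (g / (1 - g)) (n * (1 - g) / (1 - 2 * g)) t e lam' zet' kap R I X) *
        fl D n t e R I X) ≤ zet' + β + 16 ^ kap * lam' / β ^ 4

/-- ROW STEP: the probability that some context fails at level `j` -/
def RowSTEP : Prop := ∀ (p s₁ s₂ B β lam' zet' : ℝ) (P : Par), 0 < p → 0 < s₁ → 0 ≤ s₂ →
  p + s₁ + s₂ ≤ 1 → 0 < P.g → P.g ≤ 1 / 4 → 0 < P.n → P.n ≤ 1 / 4 →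
  P.g / (1 - 2 * P.g) ≤ P.n * (1 - P.g) / (1 - 2 * P.g) / 10 → 0 ≤ P.t → P.t ≤ 1 →
  0 < β → 0 < lam' → 0 < zet' → 0 ≤ B → p ≤ s₁ * P.g →
  ∀ (E : Type) [Fintype E] (D : Finset E → Prop), Up D → ∀ j : ℕ,
    0 ≤ P.lam (j + 1) → 0 < P.lam j → 0 ≤ P.zet (j + 1) → 0 < P.zet j → 0 ≤ P.dl j →
    P.eps (j + 1) + P.kap j * P.dl j ≤ P.eps j →
    (∀ (K : Finset E → Finset E → Finset E → Finset E)
      (st : Finset E → Finset E → Finset E → E → Finset E),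
      (∀ V R I, K V R I ⊆ V) →
      (∀ V R I, ∀ b ∈ K V R I \ core D P R I j (K V R I), st V R I b ⊆ K V R I ∧
        ¬ sig D P R I j (st V R I b) b) →
      PR p s₁ s₂ (fun V R I => thin P.g R fun G => thin P.n (R \ G) fun N =>
        ind (∃ b ∈ K V R I \ core D P R I j (K V R I),
          rel D P.t (P.dl j) (P.kap j) I (st V R I b) b (G ∪ N))) ≤ B) →
    P.zet j * PR (E := E) p s₁ s₂ (fun V R I => ind (∃ X ⊆ V, Bad D P R I j X)) ≤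
      (P.zet (j + 1) + P.lam (j + 1) / lam') / zet' + (p / (s₁ * P.g)) ^ (P.kap j + 1) +
        (zet' + β + 16 ^ P.kap (j + 1) * lam' / β ^ 4 + B) / P.lam j

/-- ROW CH: the blame -/
def RowCH : Prop := ∀ (q : ℕ) (p s₁ s₂ th : ℝ) (P : Par), 1 ≤ q → 0 ≤ p → 0 ≤ s₁ → 0 ≤ s₂ →
  p + s₁ + s₂ ≤ 1 → 0 ≤ P.g → P.g ≤ 1 → 0 ≤ P.n → P.n ≤ 1 → 0 ≤ P.t → P.t ≤ 1 →
  0 ≤ th → th ≤ 1 → OneC q p (xr s₁ P) s₂ P.t th →
  ∀ (E : Type) [Fintype E] (D : Finset E → Prop) (b : E) (j : ℕ), 0 ≤ P.dl j → 0 ≤ P.eta j →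
    P.eta j * (th ^ P.kap j * P.dl j) ^ (2 * q) *
      PR p s₁ s₂ (fun V R I => ind (∃ X ⊆ V, sig D P R I j X b)) ≤ Jn D (Th s₁ s₂ P) b ^ q

/-- the numbers work -/
def Good (p s₁ s₂ : ℝ) (P : Par) : Prop :=
  0 < p ∧ 0 < s₁ ∧ 0 ≤ s₂ ∧ p + s₁ + s₂ ≤ 1 ∧ 0 < P.g ∧ P.g < 1 ∧ 0 < P.n ∧ P.n < 1 ∧ 0 < P.t ∧
  P.t < 1 ∧ 0 < Th s₁ s₂ P ∧ Th s₁ s₂ P < 1 ∧ P.kap 0 = 0 ∧ P.eps 0 < 1 ∧ P.lam 0 < 1 ∧
  P.zet 0 < 1 ∧ (∀ j, 0 ≤ P.eps j ∧ P.eps j < 1 ∧ 0 ≤ P.lam j ∧ P.lam j < 1 ∧ 0 ≤ P.zet j ∧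
    P.zet j < 1) ∧
  (∀ N : ℕ, ∃ n₀, ∀ n ≥ n₀, N ≤ P.kap n) ∧
  (∀ c : ℝ, 0 < c → ∃ n₀, ∀ n ≥ n₀, P.dl n ≤ c ∧ P.eta n ≤ c) ∧
  ∀ (E : Type) [Fintype E] (D : Finset E → Prop), Up D → ∀ (b : E) (m : ℕ),
    ∑ j ∈ range m, PR p s₁ s₂ (fun V R I => ind (Ev D P R I j b V)) ≤
      Th s₁ s₂ P / 2 * Jn D (Th s₁ s₂ P) b

/-- ROW SUM: constants -/
def RowSUM : Prop := RowONE → RowCORE → RowSTEP → RowCH → ∃ (p s₁ s₂ : ℝ) (P : Par), Good p s₁ s₂ P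

/-- ROW RULE: the rule -/
def RowRULE : Prop := ∀ (p s₁ s₂ : ℝ) (P : Par), Good p s₁ s₂ P → RowENT →
  ∀ (E : Type) [Fintype E] (M : Matroid E), M.E = Set.univ →
    ∃ R : OnlineRule M, R.IsCompetitive (ENNReal.ofReal (p / 2))

end Vale.Agent.P331.H316
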