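import Vale.Agent.P331.H316.Rows
import Vale.Agent.P331.H901.HCs

/-!
# The one-coordinate inequality in the literal form
-/

set_option autoImplicit false

namespace Vale.Agent.P331.H316

open Finset

/-- **ROW ONE** -/
theorem rowONE : RowONE := by
  intro q hq
  obtain ⟨k, rfl⟩ : ∃ k, q = k + 1 := ⟨q - 1, by omega⟩
  have hk1 : (1 : ℝ) ≤ (k : ℝ) + 1 := by
    have : (0 : ℝ) ≤ (k : ℝ) := Nat.cast_nonneg k
    linarith
  set t : ℝ := 1 / (64 * ((k : ℝ) + 1) ^ 2) with ht
  have ht0 : 0 < t := by positivity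
  have ht1 : t ≤ 1 / 64 := by
    rw [ht]
    apply one_div_le_one_div_of_le (by norm_num)
    nlinarith
  set x₀ : ℝ := min (1 / 100) (min ((t / 4) ^ (k + 1) / 8) (t / (16 * ((k : ℝ) + 1)))) with hx₀
  have hx0 : 0 < x₀ := by
    rw [hx₀]
    refine lt_min (by norm_num) (lt_min (by positivity) (by positivity))
  have hxa : x₀ ≤ 1 / 100 := min_le_left _ _
  have hxb : x₀ ≤ (t / 4) ^ (k + 1) / 8 := (min_le_right _ _).trans (min_le_left _ _)
  have hxc : x₀ ≤ t / (16 * ((k : ℝ) + 1)) := (min_le_right _ _).trans (min_le_right _ _)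
  refine ⟨t, ht0, by linarith, x₀, hx0, hxa, 16 / t, by positivity, ?_⟩
  intro x p th hx hxx hp hpx hth hth1 hC a b ha hb
  have hΘt : t / 4 ≤ x + 1 / 4 * t := by linarith
  have hpow : (t / 4) ^ (k + 1) ≤ (x + 1 / 4 * t) ^ (k + 1) :=
    pow_le_pow_left₀ (by positivity) hΘt _
  have hpos : 0 < (t / 4) ^ (k + 1) := by positivity
  have h := Vale.Agent.P331.H901.hc_scalar (q := k) (x := x) (s := 1 / 4) (t := t) (p := p)
    (κ := 1 - th) (Θ := x + 1 / 4 * t) hx (by norm_num) ht0.le hp (by linarith) (by linarith)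
    rfl (by linarith) (by linarith) (by linarith) (by
      have e : 16 * ((k : ℝ) + 1) ^ 2 * t ^ 2 = t / 4 := by
        rw [ht]
        field_simp
        norm_num
      rw [e]
      exact hΘt) (by
      have e : 4 * ((k : ℝ) + 1) * (t / (16 * ((k : ℝ) + 1))) = t / 4 := by
        field_simp
        norm_num
      have h2 : 4 * ((k : ℝ) + 1) * x ≤ 4 * ((k : ℝ) + 1) * (t / (16 * ((k : ℝ) + 1))) :=
        mul_le_mul_of_nonneg_left (hxx.trans hxc) (by positivity)
      linarith) (by linarith) (by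
      have e : 16 / t * p * (t / 4) = 4 * p := by
        field_simp
        ring
      have h3 : 16 / t * p * (t / 4) ≤ (1 - th) * (x + 1 / 4 * t) :=
        mul_le_mul hC hΘt (by positivity) (by linarith)
      linarith) (by linarith) a b ha hb
  have e1 : (1 : ℝ) - (1 - th) = th := by ring
  rw [e1] at h
  linarith

end Vale.Agent.P331.H316
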